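import Vale.Agent.P133.R2.H307.Spec2
import Mathlib.Analysis.CStarAlgebra.ApproximateUnit
import Mathlib.Topology.PartitionOfUnity

/-!
P133 (helper704, after helper321): row L2 of `H307.Spec2`. Membership in a closed ideal is a local
property, for upper semicontinuous fields over locally compact spaces.
-/

set_option autoImplicit false

namespace Vale.Agent.P133.R2.H704

open Vale.Agent.P133.H832 Vale.Agent.P133.R2.H307 Topology

universe u v

/-- If `e * b` is in the closed subspace `P` for all `e` then `b` is. -/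
lemma mem_of_mul {A : Type u} [NonUnitalCStarAlgebra A] {P : Submodule ℂ A}
    (hP : IsClosed (P : Set A)) {b : A} (h : ∀ e : A, e * b ∈ P) : b ∈ P := by
  let _ := CStarAlgebra.spectralOrder A
  let _ := CStarAlgebra.spectralOrderedRing A
  have hu := CStarAlgebra.increasingApproximateUnit A
  have := hu.neBot
  exact hP.mem_of_tendsto (hu.tendsto_mul_right b) (Filter.Eventually.of_forall fun e => h e)

theorem specLoc2 : SpecLoc2.{u, v} := by
  intro X _ _ _ B _ A _ π _ hnorm husc hmul P hP c hc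
  -- multiples of elements of `P` by functions
  have hPm : ∀ f : C(X, ℝ), (∀ t, 0 ≤ f t ∧ f t ≤ 1) → ∀ p ∈ P,
      ∃ b ∈ P, ∀ t, π t b = (f t : ℂ) • π t p := by
    intro f hf p hp
    obtain ⟨b, hb⟩ := hmul f hf p
    refine ⟨b, mem_of_mul hP.1 fun e => ?_, hb⟩
    obtain ⟨g, hg⟩ := hmul f hf e
    have h1 : e * b = g * p := by
      rw [← sub_eq_zero, ← norm_le_zero_iff]
      refine hnorm _ 0 le_rfl fun t => ?_
      rw [map_sub, map_mul, map_mul, hb, hg, mul_smul_comm, smul_mul_assoc, sub_self, norm_zero]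
    rw [h1]
    exact (hP.2 g p hp).1
  have hcl : c ∈ closure (P : Set A) := by
    rw [Metric.mem_closure_iff]
    intro ε hε
    have hε2 : 0 < ε / 2 := by positivity
    choose p hpP hp using fun t => hc t (ε / 2) hε2
    have hopen : ∀ t, IsOpen {s | ‖π s (c - p t)‖ < ε / 2} := fun t => by
      have h := (husc (c - p t) (ε / 2) hε2).isClosed.isOpen_compl
      have h2 : {s | ε / 2 ≤ ‖π s (c - p t)‖}ᶜ = {s | ‖π s (c - p t)‖ < ε / 2} := by
        ext s
        simp only [Set.mem_compl_iff, Set.mem_setOf_eq, not_le]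
      rwa [h2] at h
    obtain ⟨F, hF⟩ := (husc c (ε / 2) hε2).elim_finite_subcover
      (fun t => {s | ‖π s (c - p t)‖ < ε / 2}) hopen
      (fun t _ => Set.mem_iUnion.2 ⟨t, hp t⟩)
    obtain ⟨φ, hφ, _⟩ := PartitionOfUnity.exists_isSubordinate_of_locallyFinite_t2space
      (husc c (ε / 2) hε2)
      (fun t : F => {s | ‖π s (c - p t)‖ < ε / 2}) (fun t => hopen t)
      (locallyFinite_of_finite _) (fun s hs => by
        obtain ⟨t, ht⟩ := Set.mem_iUnion.1 (hF hs)
        obtain ⟨htF, hts⟩ := Set.mem_iUnion.1 ht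
        exact Set.mem_iUnion.2 ⟨⟨t, htF⟩, hts⟩)
    have hb : ∀ t : F, ∃ b ∈ P, ∀ s, π s b = (φ t s : ℂ) • π s (p t) := fun t =>
      hPm (φ t) (fun s => ⟨φ.nonneg t s, φ.le_one t s⟩) (p t) (hpP t)
    choose b hbP hb using hb
    refine ⟨∑ t, b t, P.sum_mem fun t _ => hbP t, ?_⟩
    rw [dist_eq_norm]
    refine lt_of_le_of_lt (hnorm _ (ε / 2) hε2.le fun s => ?_) (half_lt_self hε)
    have hsum1 : ∑ t, φ t s ≤ 1 := by
      rw [← finsum_eq_sum_of_fintype]
      exact φ.sum_le_one s
    have hrest : (1 - ∑ t, φ t s) * ‖π s c‖ ≤ (1 - ∑ t, φ t s) * (ε / 2) := by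
      by_cases hs : ε / 2 ≤ ‖π s c‖
      · have hsum : ∑ t, φ t s = 1 := by
          rw [← finsum_eq_sum_of_fintype]
          exact φ.sum_eq_one hs
        rw [hsum, sub_self, zero_mul, zero_mul]
      · exact mul_le_mul_of_nonneg_left (not_le.1 hs).le (by linarith)
    have h1 : π s (c - ∑ t, b t) =
        ((1 - ∑ t, φ t s : ℝ) : ℂ) • π s c + ∑ t, (φ t s : ℂ) • π s (c - p t) := by
      rw [map_sub, map_sum]
      simp only [hb, map_sub, smul_sub, Finset.sum_sub_distrib]
      rw [← Finset.sum_smul]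
      push_cast
      rw [sub_smul, one_smul]
      abel
    rw [h1]
    calc ‖((1 - ∑ t, φ t s : ℝ) : ℂ) • π s c + ∑ t, (φ t s : ℂ) • π s (c - p t)‖
        ≤ ‖((1 - ∑ t, φ t s : ℝ) : ℂ) • π s c‖ + ‖∑ t, (φ t s : ℂ) • π s (c - p t)‖ :=
          norm_add_le _ _
      _ ≤ (1 - ∑ t, φ t s) * (ε / 2) + ∑ t, φ t s * (ε / 2) := by
          refine add_le_add ?_ ((norm_sum_le _ _).trans ?_)
          · rw [norm_smul, Complex.norm_real, Real.norm_of_nonneg (by linarith)]
            exact hrest
          · refine Finset.sum_le_sum fun t _ => ?_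
            rw [norm_smul, Complex.norm_real, Real.norm_of_nonneg (φ.nonneg t s)]
            by_cases h0 : φ t s = 0
            · rw [h0, zero_mul, zero_mul]
            · have hs : s ∈ tsupport (φ t) := subset_closure h0
              exact mul_le_mul_of_nonneg_left (hφ t hs).le (φ.nonneg t s)
      _ = ε / 2 := by rw [← Finset.sum_mul]; ring
  rwa [hP.1.closure_eq] at hcl

end Vale.Agent.P133.R2.H704
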